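import Mathlib
import Vale.Agent.P112.H967.HL

/-!
# Hardy-Littlewood maximal function of 1-periodic functions, circular distance, equally spaced
points.  Row CH-HL (periodic layer) of CARLESON-HUNT (P091), over `Vale.Agent.P112.HL.MF`.
-/

namespace Vale.Agent.P091.CH.Per

open MeasureTheory Set Metric
open scoped ENNReal
open Vale.Agent.P112.HL

/-! ## periods -/

theorem lint_period {f : ℝ → ℝ≥0∞} (hf : ∀ x, f (x + 1) = f x) (a : ℝ) :
    ∫⁻ x in Ioc a (a + 1), f x = ∫⁻ x in Ioc (0 : ℝ) 1, f x := by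
  have h1 := isAddFundamentalDomain_Ioc (T := 1) one_pos a (volume : Measure ℝ)
  have h2 := isAddFundamentalDomain_Ioc (T := 1) one_pos 0 (volume : Measure ℝ)
  have hper : Function.Periodic f 1 := hf
  have h := h1.setLIntegral_eq h2 f (by
    rintro ⟨g, hg⟩ x
    obtain ⟨k, rfl⟩ := AddSubgroup.mem_zmultiples_iff.1 hg
    change f (k • (1 : ℝ) + x) = f x
    rw [add_comm]
    exact hper.zsmul k x)
  rw [zero_add] at h
  exact h

theorem lint_period_nat {f : ℝ → ℝ≥0∞} (hf : ∀ x, f (x + 1) = f x) (a : ℝ) (N : ℕ) :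
    ∫⁻ x in Ioc a (a + N), f x = N * ∫⁻ x in Ioc (0 : ℝ) 1, f x := by
  induction N with
  | zero => simp
  | succ N ih =>
    have hd : Ioc a (a + (N + 1 : ℕ)) = Ioc a (a + N) ∪ Ioc (a + N) (a + N + 1) := by
      rw [Ioc_union_Ioc_eq_Ioc (by simp) (by simp)]
      push_cast
      rw [add_assoc]
    have hdis : Disjoint (Ioc a (a + (N : ℝ))) (Ioc (a + N) (a + N + 1)) := by
      rw [Set.disjoint_left]
      intro x hx hy
      exact absurd hx.2 (not_le.2 hy.1)
    rw [hd, lintegral_union measurableSet_Ioc hdis, ih, lint_period hf (a + N)]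
    push_cast
    ring

theorem lint_Ioo_one {f : ℝ → ℝ≥0∞} (hf : ∀ x, f (x + 1) = f x) (a : ℝ) :
    ∫⁻ x in Ioo a (a + 1), f x = ∫⁻ x in Ioc (0 : ℝ) 1, f x := by
  rw [← lint_period hf a, setLIntegral_congr Ioo_ae_eq_Ioc]

theorem lint_Ico_zero {f : ℝ → ℝ≥0∞} :
    ∫⁻ x in Ico (0 : ℝ) 1, f x = ∫⁻ x in Ioc (0 : ℝ) 1, f x :=
  setLIntegral_congr Ico_ae_eq_Ioc

/-- averages over long intervals -/
theorem avg_long {f : ℝ → ℝ≥0∞} (hf : ∀ x, f (x + 1) = f x) (c : ℝ) {r : ℝ} (hr : 1 / 2 ≤ r) :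
    (∫⁻ y in ball c r, f y) / ENNReal.ofReal (2 * r) ≤ 2 * ∫⁻ x in Ioc (0 : ℝ) 1, f x := by
  set A := ∫⁻ x in Ioc (0 : ℝ) 1, f x with hA
  have h2r : ENNReal.ofReal (2 * r) ≠ 0 := by
    simp only [ne_eq, ENNReal.ofReal_eq_zero, not_le]; linarith
  rw [ENNReal.div_le_iff h2r ENNReal.ofReal_ne_top]
  have hN := Nat.le_ceil (2 * r)
  have hN' := (Nat.ceil_lt_add_one (show 0 ≤ 2 * r by linarith)).le
  calc ∫⁻ y in ball c r, f y ≤ ∫⁻ y in Ioc (c - r) (c - r + (⌈2 * r⌉₊ : ℝ)), f y := by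
        refine lintegral_mono_set ?_
        rw [Real.ball_eq_Ioo]
        intro y hy
        exact ⟨hy.1, by linarith [hy.2]⟩
    _ = (⌈2 * r⌉₊ : ℝ≥0∞) * A := lint_period_nat hf _ _
    _ ≤ ENNReal.ofReal (2 * (2 * r)) * A := by
        gcongr
        rw [← ENNReal.ofReal_natCast]
        exact ENNReal.ofReal_le_ofReal (by linarith)
    _ = 2 * A * ENNReal.ofReal (2 * r) := by
        rw [ENNReal.ofReal_mul (by norm_num : (0 : ℝ) ≤ 2), show ENNReal.ofReal 2 = 2 by norm_num]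
        ring

theorem MF_period {f : ℝ → ℝ≥0∞} (hf : ∀ x, f (x + 1) = f x) (x : ℝ) : MF f (x + 1) = MF f x := by
  have key : ∀ c r : ℝ, ∫⁻ y in ball (c + 1) r, f y = ∫⁻ y in ball c r, f y := by
    intro c r
    have h := (measurePreserving_add_right (volume : Measure ℝ) 1).setLIntegral_comp_preimage_emb
      (measurableEmbedding_addRight 1) f (ball (c + 1) r)
    rw [← h]
    have hp : (fun x : ℝ => x + 1) ⁻¹' ball (c + 1) r = ball c r := by
      ext y
      simp [Real.dist_eq]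
    rw [hp]
    exact lintegral_congr fun y => (hf y)
  refine le_antisymm ?_ ?_
  · refine iSup_le fun c => iSup_le fun r => iSup_le fun hx => ?_
    have h := key (c - 1) r
    rw [sub_add_cancel] at h
    rw [h]
    refine avg_le_MF f ?_
    rw [mem_ball, Real.dist_eq] at hx ⊢
    rwa [show x - (c - 1) = x + 1 - c by ring]
  · refine iSup_le fun c => iSup_le fun r => iSup_le fun hx => ?_
    rw [← key c r]
    refine avg_le_MF f ?_
    rw [mem_ball, Real.dist_eq] at hx ⊢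
    rwa [show x + 1 - (c + 1) = x - c by ring]

/-- the maximal function of a periodic function is at least its mean -/
theorem mean_le_MF {f : ℝ → ℝ≥0∞} (hf : ∀ x, f (x + 1) = f x) (x : ℝ) :
    ∫⁻ y in Ioc (0 : ℝ) 1, f y ≤ MF f x := by
  have h := avg_le_MF f (x := x) (c := x) (r := 1 / 2) (by simp)
  refine le_trans (le_of_eq ?_) h
  rw [Real.ball_eq_Ioo, show x + 1 / 2 = (x - 1 / 2) + 1 by ring, lint_Ioo_one hf]
  norm_num

/-- localisation of the maximal function of a periodic function -/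
theorem MF_le_max {f : ℝ → ℝ≥0∞} (hf : ∀ x, f (x + 1) = f x) {x : ℝ} (hx0 : 0 ≤ x) (hx1 : x ≤ 1) :
    MF f x ≤ max (2 * ∫⁻ y in Ioc (0 : ℝ) 1, f y) (MF ((Ioo (-1 : ℝ) 2).indicator f) x) := by
  refine iSup_le fun c => iSup_le fun r => iSup_le fun hx => ?_
  rcases le_or_gt (1 / 2) r with hr | hr
  · exact (avg_long hf c hr).trans (le_max_left _ _)
  · refine le_trans ?_ (le_max_right _ _)
    refine le_trans (le_of_eq ?_) (avg_le_MF _ hx)
    congr 1
    refine setLIntegral_congr_fun measurableSet_ball fun y hy => ?_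
    rw [mem_ball, Real.dist_eq] at hx hy
    have h1 := abs_lt.1 hx
    have h2 := abs_lt.1 hy
    rw [indicator_of_mem]
    constructor <;> linarith [h1.1, h1.2, h2.1, h2.2]

theorem lint_three {f : ℝ → ℝ≥0∞} (hf : ∀ x, f (x + 1) = f x) :
    ∫⁻ y, (Ioo (-1 : ℝ) 2).indicator f y = 3 * ∫⁻ y in Ioc (0 : ℝ) 1, f y := by
  rw [lintegral_indicator measurableSet_Ioo, setLIntegral_congr Ioo_ae_eq_Ioc]
  have := lint_period_nat hf (-1) 3
  rw [show (-1 : ℝ) + (3 : ℕ) = 2 by norm_num] at this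
  rw [this]
  norm_num

/-- **weak type (1,1) on the circle** -/
theorem weak_per {f : ℝ → ℝ≥0∞} (hf : ∀ x, f (x + 1) = f x) (t : ℝ≥0∞) :
    t * volume ({x | t < MF f x} ∩ Ico 0 1) ≤ 12 * ∫⁻ y in Ioc (0 : ℝ) 1, f y := by
  set A := ∫⁻ x in Ioc (0 : ℝ) 1, f x with hA
  rcases lt_or_ge t (2 * A) with ht | ht
  · calc t * volume ({x | t < MF f x} ∩ Ico 0 1) ≤ t * volume (Ico (0 : ℝ) 1) := by
          gcongr
          exact inter_subset_right
      _ = t := by rw [Real.volume_Ico]; norm_num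
      _ ≤ 2 * A := ht.le
      _ ≤ 12 * A := by gcongr; norm_num
  · calc t * volume ({x | t < MF f x} ∩ Ico 0 1)
        ≤ t * volume {x | t < MF ((Ioo (-1 : ℝ) 2).indicator f) x} := by
          gcongr
          rintro x ⟨hx, hx01⟩
          have hx' : t < MF f x := hx
          have h := lt_of_lt_of_le hx' (MF_le_max hf hx01.1 hx01.2.le)
          rcases lt_max_iff.1 h with h | h
          · exact absurd h (not_lt.2 ht)
          · exact h
      _ ≤ 4 * ∫⁻ y, (Ioo (-1 : ℝ) 2).indicator f y := weak_MF _ _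
      _ = 12 * A := by
          rw [lint_three hf, ← mul_assoc, ← hA]
          norm_num

theorem weak_per_div {f : ℝ → ℝ≥0∞} (hf : ∀ x, f (x + 1) = f x) {t : ℝ≥0∞} (h0 : t ≠ 0)
    (h1 : t ≠ ∞) :
    volume ({x | t < MF f x} ∩ Ico 0 1) ≤ 12 * (∫⁻ y in Ioc (0 : ℝ) 1, f y) / t := by
  rw [ENNReal.le_div_iff_mul_le (Or.inl h0) (Or.inl h1), mul_comm]
  exact weak_per hf t

/-- the exceptional set of the major subset -/
theorem major_per {f : ℝ → ℝ≥0∞} (hf : ∀ x, f (x + 1) = f x) {G : ℝ≥0∞} (hG : G ≠ 0) (hG' : G ≠ ∞)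
    (hA : ∫⁻ y in Ioc (0 : ℝ) 1, f y ≠ ∞) :
    volume ({x | 24 * (∫⁻ y in Ioc (0 : ℝ) 1, f y) / G < MF f x} ∩ Ico 0 1) ≤ G / 2 := by
  set A := ∫⁻ x in Ioc (0 : ℝ) 1, f x with hAd
  rcases eq_or_ne A 0 with hA0 | hA0
  · have h : volume ({x | 24 * A / G < MF f x} ∩ Ico 0 1) = 0 := by
      have h0 : ∀ n : ℕ, volume ({x | ((n : ℝ≥0∞) + 1)⁻¹ < MF f x} ∩ Ico 0 1) = 0 := by
        intro n
        have hne : ((n : ℝ≥0∞) + 1)⁻¹ ≠ 0 := by
          simp
        have hnt : ((n : ℝ≥0∞) + 1)⁻¹ ≠ ∞ := by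
          simp
        have := weak_per_div hf hne hnt
        rw [← hAd, hA0] at this
        simpa using this
      refine measure_mono_null ?_ (measure_iUnion_null h0)
      rintro x ⟨hx, hx01⟩
      rw [hA0] at hx
      have hx' : 0 < MF f x := by simpa using hx
      obtain ⟨n, hn⟩ := ENNReal.exists_inv_nat_lt hx'.ne'
      refine mem_iUnion.2 ⟨n, ?_, hx01⟩
      refine lt_of_le_of_lt ?_ hn
      exact ENNReal.inv_le_inv.2 le_self_add
    rw [h]
    exact zero_le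
  · have h0 : 24 * A / G ≠ 0 := by
      refine (ENNReal.div_pos ?_ hG').ne'
      exact mul_ne_zero (by norm_num) hA0
    have h1 : 24 * A / G ≠ ∞ := ENNReal.div_ne_top (ENNReal.mul_ne_top (by norm_num) hA) hG
    refine (weak_per_div hf h0 h1).trans (le_of_eq ?_)
    rw [← hAd]
    have h24 : (24 : ℝ≥0∞) * A ≠ 0 := mul_ne_zero (by norm_num) hA0
    have h24' : (24 : ℝ≥0∞) * A ≠ ∞ := ENNReal.mul_ne_top (by norm_num) hA
    have e1 : G / 2 * (24 * A / G) = 12 * A := by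
      rw [div_eq_mul_inv, div_eq_mul_inv, show G * 2⁻¹ * (24 * A * G⁻¹) = (G * G⁻¹) * (24 * 2⁻¹ * A) by ring,
        ENNReal.mul_inv_cancel hG hG', one_mul]
      congr 1
      rw [show (24 : ℝ≥0∞) = 12 * 2 by norm_num, mul_assoc, ENNReal.mul_inv_cancel (by norm_num)
        (by norm_num), mul_one]
    rw [← e1, ENNReal.mul_div_cancel_right h0 h1]

/-! ## strong type -/

/-- Jensen on the circle -/
theorem mean_rpow_le {f : ℝ → ℝ≥0∞} (hfm : Measurable f) {p : ℝ} (hp : 1 < p) :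
    (∫⁻ y in Ioc (0 : ℝ) 1, f y) ^ p ≤ ∫⁻ y in Ioc (0 : ℝ) 1, f y ^ p := by
  have hpq : p.HolderConjugate p.conjExponent := Real.HolderConjugate.conjExponent hp
  have h := ENNReal.lintegral_mul_le_Lp_mul_Lq (volume.restrict (Ioc (0 : ℝ) 1)) hpq
    hfm.aemeasurable (aemeasurable_const (b := (1 : ℝ≥0∞)))
  simp only [Pi.mul_apply, mul_one, ENNReal.one_rpow, lintegral_const, Measure.restrict_apply,
    MeasurableSet.univ, univ_inter, Real.volume_Ioc, sub_zero, ENNReal.ofReal_one] at h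
  have hp0 : 0 < p := by linarith
  calc (∫⁻ y in Ioc (0 : ℝ) 1, f y) ^ p ≤ ((∫⁻ y in Ioc (0 : ℝ) 1, f y ^ p) ^ (1 / p)) ^ p := by
        gcongr
    _ = ∫⁻ y in Ioc (0 : ℝ) 1, f y ^ p := by
        rw [← ENNReal.rpow_mul, one_div, inv_mul_cancel₀ hp0.ne', ENNReal.rpow_one]

/-- **strong type on the circle** -/
theorem strong_per {f : ℝ → ℝ≥0∞} (hf : ∀ x, f (x + 1) = f x) (hfm : Measurable f) {p : ℝ}
    (hp : 1 < p) :
    ∫⁻ x in Ico (0 : ℝ) 1, MF f x ^ p ≤
      (2 ^ p + 3 * ENNReal.ofReal (8 * p * 2 ^ (p - 1) / (p - 1))) *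
        ∫⁻ x in Ioc (0 : ℝ) 1, f x ^ p := by
  set A := ∫⁻ x in Ioc (0 : ℝ) 1, f x with hA
  have hp0 : 0 < p := by linarith
  have hg : Measurable ((Ioo (-1 : ℝ) 2).indicator f) := hfm.indicator measurableSet_Ioo
  calc ∫⁻ x in Ico (0 : ℝ) 1, MF f x ^ p
      ≤ ∫⁻ x in Ico (0 : ℝ) 1, ((2 * A) ^ p + MF ((Ioo (-1 : ℝ) 2).indicator f) x ^ p) := by
        refine setLIntegral_mono' measurableSet_Ico fun x hx => ?_
        have h := MF_le_max hf hx.1 hx.2.le
        rcases le_total (2 * A) (MF ((Ioo (-1 : ℝ) 2).indicator f) x) with h2 | h2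
        · rw [← hA, max_eq_right h2] at h
          exact (ENNReal.rpow_le_rpow h hp0.le).trans le_add_self
        · rw [← hA, max_eq_left h2] at h
          exact (ENNReal.rpow_le_rpow h hp0.le).trans le_self_add
    _ = (2 * A) ^ p + ∫⁻ x in Ico (0 : ℝ) 1, MF ((Ioo (-1 : ℝ) 2).indicator f) x ^ p := by
        rw [lintegral_add_left measurable_const, setLIntegral_const, Real.volume_Ico]
        norm_num
    _ ≤ 2 ^ p * (∫⁻ x in Ioc (0 : ℝ) 1, f x ^ p) +
        ENNReal.ofReal (8 * p * 2 ^ (p - 1) / (p - 1)) *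
          (∫⁻ x, ((Ioo (-1 : ℝ) 2).indicator f) x ^ p) := by
        gcongr
        · rw [ENNReal.mul_rpow_of_nonneg _ _ hp0.le]
          gcongr
          exact mean_rpow_le hfm hp
        · exact (setLIntegral_le_lintegral _ _).trans (strong_MF hp hg)
    _ = 2 ^ p * (∫⁻ x in Ioc (0 : ℝ) 1, f x ^ p) +
        ENNReal.ofReal (8 * p * 2 ^ (p - 1) / (p - 1)) *
          (3 * (∫⁻ x in Ioc (0 : ℝ) 1, f x ^ p)) := by
        rw [← lint_three (f := fun x => f x ^ p) (fun x => by rw [hf x])]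
        congr 2
        refine lintegral_congr fun x => ?_
        by_cases hx : x ∈ Ioo (-1 : ℝ) 2
        · rw [indicator_of_mem hx, indicator_of_mem hx]
        · rw [indicator_of_notMem hx, indicator_of_notMem hx, ENNReal.zero_rpow_of_pos hp0]
    _ = _ := by ring

theorem strong_per_two {f : ℝ → ℝ≥0∞} (hf : ∀ x, f (x + 1) = f x) (hfm : Measurable f) :
    ∫⁻ x in Ico (0 : ℝ) 1, MF f x ^ 2 ≤ 100 * ∫⁻ x in Ioc (0 : ℝ) 1, f x ^ 2 := by
  have h := strong_per hf hfm (p := 2) (by norm_num)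
  have e1 : (2 : ℝ≥0∞) ^ (2 : ℝ) + 3 * ENNReal.ofReal (8 * 2 * 2 ^ ((2 : ℝ) - 1) / (2 - 1)) = 100 := by
    rw [show (2 : ℝ) - 1 = 1 by norm_num, Real.rpow_one, ENNReal.rpow_two]
    norm_num
  rw [e1] at h
  simpa only [ENNReal.rpow_two] using h

/-! ## the circular distance -/

/-- distance to the nearest integer -/
noncomputable def nrm (x : ℝ) : ℝ := |x - round x|

theorem nrm_nonneg (x : ℝ) : 0 ≤ nrm x := abs_nonneg _

theorem nrm_le_half (x : ℝ) : nrm x ≤ 1 / 2 := abs_sub_round x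

theorem nrm_le_sub_int (x : ℝ) (n : ℤ) : nrm x ≤ |x - n| := round_le x n

theorem nrm_le_abs (x : ℝ) : nrm x ≤ |x| := by simpa using nrm_le_sub_int x 0

theorem exists_int_nrm (x : ℝ) : ∃ n : ℤ, nrm x = |x - n| := ⟨round x, rfl⟩

theorem nrm_add_int (x : ℝ) (n : ℤ) : nrm (x + n) = nrm x := by
  unfold nrm
  rw [round_add_intCast]
  congr 1
  push_cast
  ring

theorem nrm_sub_int (x : ℝ) (n : ℤ) : nrm (x - n) = nrm x := by
  have := nrm_add_int (x - n) n
  rw [sub_add_cancel] at this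
  exact this.symm

theorem nrm_neg (x : ℝ) : nrm (-x) = nrm x := by
  refine le_antisymm ?_ ?_
  · obtain ⟨n, hn⟩ := exists_int_nrm x
    rw [hn]
    have := nrm_le_sub_int (-x) (-n)
    refine this.trans (le_of_eq ?_)
    rw [← abs_neg]
    congr 1
    push_cast
    ring
  · obtain ⟨n, hn⟩ := exists_int_nrm (-x)
    rw [hn]
    have := nrm_le_sub_int x (-n)
    refine this.trans (le_of_eq ?_)
    rw [← abs_neg]
    congr 1
    push_cast
    ring

theorem nrm_sub_comm (x y : ℝ) : nrm (x - y) = nrm (y - x) := by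
  rw [← nrm_neg, neg_sub]

theorem nrm_add_le (x y : ℝ) : nrm (x + y) ≤ nrm x + nrm y := by
  obtain ⟨n, hn⟩ := exists_int_nrm x
  obtain ⟨m, hm⟩ := exists_int_nrm y
  rw [hn, hm]
  have h := nrm_le_sub_int (x + y) (n + m)
  refine h.trans ?_
  have : x + y - ((n + m : ℤ) : ℝ) = (x - n) + (y - m) := by push_cast; ring
  rw [this]
  exact abs_add_le _ _

theorem nrm_tri (x y z : ℝ) : nrm (x - z) ≤ nrm (x - y) + nrm (y - z) := by
  have := nrm_add_le (x - y) (y - z)
  rwa [sub_add_sub_cancel] at this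

theorem nrm_eq_abs {x : ℝ} (h : |x| ≤ 1 / 2) : nrm x = |x| := by
  refine le_antisymm (nrm_le_abs x) ?_
  obtain ⟨n, hn⟩ := exists_int_nrm x
  rcases eq_or_ne n 0 with h0 | h0
  · rw [hn, h0]; simp
  · rw [hn]
    have h1 : (1 : ℝ) ≤ |(n : ℝ)| := by
      exact_mod_cast Int.one_le_abs h0
    have h2 : |(n : ℝ)| ≤ |x - n| + |x| := by
      have := abs_sub_le (n : ℝ) x 0
      rw [sub_zero, sub_zero, abs_sub_comm] at this
      exact this
    linarith

@[simp] theorem nrm_zero : nrm 0 = 0 := by simp [nrm]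

theorem nrm_eq_norm (x : ℝ) : nrm x = ‖(x : UnitAddCircle)‖ := by
  rw [UnitAddCircle.norm_eq]; rfl

theorem measurable_nrm : Measurable nrm := by
  have : nrm = fun x : ℝ => ‖(x : UnitAddCircle)‖ := funext nrm_eq_norm
  rw [this]
  exact (AddCircle.continuous_mk' 1).norm.measurable

theorem continuous_nrm : Continuous nrm := by
  have : nrm = fun x : ℝ => ‖(x : UnitAddCircle)‖ := funext nrm_eq_norm
  rw [this]
  exact (AddCircle.continuous_mk' 1).norm

/-! ## the decay kernel -/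

/-- `(1+a)^{-n}` -/
noncomputable def dk (n : ℕ) (a : ℝ) : ℝ := ((1 + a) ^ n)⁻¹

theorem dk_pos (n : ℕ) {a : ℝ} (ha : 0 ≤ a) : 0 < dk n a := by unfold dk; positivity

theorem dk_nonneg (n : ℕ) {a : ℝ} (ha : 0 ≤ a) : 0 ≤ dk n a := (dk_pos n ha).le

theorem dk_le_one (n : ℕ) {a : ℝ} (ha : 0 ≤ a) : dk n a ≤ 1 :=
  inv_le_one_of_one_le₀ (one_le_pow₀ (by linarith))

theorem dk_anti (n : ℕ) {a b : ℝ} (ha : 0 ≤ a) (hab : a ≤ b) : dk n b ≤ dk n a := by
  unfold dk
  gcongr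

theorem dk_add (m n : ℕ) (a : ℝ) : dk (m + n) a = dk m a * dk n a := by
  unfold dk
  rw [pow_add, mul_inv]

theorem dk_mono_exp {m n : ℕ} (h : m ≤ n) {a : ℝ} (ha : 0 ≤ a) : dk n a ≤ dk m a := by
  obtain ⟨k, rfl⟩ := Nat.exists_eq_add_of_le h
  rw [dk_add]
  exact mul_le_of_le_one_right (dk_nonneg m ha) (dk_le_one k ha)

/-- moving the centre: `(1+a)^{-n} ≤ (1+d)^n (1+b)^{-n}` if `b ≤ a + d` -/
theorem dk_shift (n : ℕ) {a b d : ℝ} (ha : 0 ≤ a) (hb : 0 ≤ b) (hd : 0 ≤ d) (h : b ≤ a + d) :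
    dk n a ≤ (1 + d) ^ n * dk n b := by
  unfold dk
  rw [← div_eq_mul_inv, inv_eq_one_div, div_le_div_iff₀ (by positivity) (by positivity), one_mul,
    ← mul_pow]
  refine pow_le_pow_left₀ (by positivity) ?_ n
  nlinarith [mul_nonneg ha hd]

/-- `Σ_{i<N} (1+i)^{-2} ≤ 2` -/
theorem sum_dk_two (N : ℕ) : ∑ i ∈ Finset.range N, dk 2 (i : ℝ) ≤ 2 := by
  have h : ∀ N : ℕ, 0 < N → ∑ i ∈ Finset.range N, dk 2 (i : ℝ) ≤ 2 - 1 / (N : ℝ) := by
    intro N hN
    induction N, hN using Nat.le_induction with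
    | base => norm_num [dk]
    | succ k hk ih =>
      rw [Finset.sum_range_succ]
      have hk' : (0 : ℝ) < k := by exact_mod_cast hk
      have h1 : dk 2 (k : ℝ) ≤ 1 / (k : ℝ) - 1 / ((k + 1 : ℕ) : ℝ) := by
        unfold dk
        push_cast
        rw [div_sub_div _ _ hk'.ne' (by positivity), inv_eq_one_div,
          div_le_div_iff₀ (by positivity) (by positivity)]
        nlinarith [hk']
      linarith
  rcases Nat.eq_zero_or_pos N with h0 | h0
  · subst h0; simp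
  · have := h N h0
    have h2 : (0 : ℝ) < N := by exact_mod_cast h0
    have : 0 < 1 / (N : ℝ) := by positivity
    linarith [h N h0]

theorem sum_dk {n : ℕ} (hn : 2 ≤ n) (N : ℕ) : ∑ i ∈ Finset.range N, dk n (i : ℝ) ≤ 2 :=
  (Finset.sum_le_sum fun i _ => dk_mono_exp hn (Nat.cast_nonneg i)).trans (sum_dk_two N)

/-- distinct integers: `Σ_{m ∈ S} (1+|u-m|)^{-n} ≤ 4` -/
theorem sum_dk_int {n : ℕ} (hn : 2 ≤ n) (S : Finset ℤ) (u : ℝ) :
    ∑ m ∈ S, dk n |u - m| ≤ 4 := by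
  classical
  have hsplit := Finset.sum_filter_add_sum_filter_not S (fun m : ℤ => m ≤ ⌊u⌋)
    (fun m => dk n |u - m|)
  rw [← hsplit]
  -- a general bound for an injective index
  have gen : ∀ (T : Finset ℤ) (i : ℤ → ℕ), Set.InjOn i T → (∀ m ∈ T, (i m : ℝ) ≤ |u - m|) →
      ∑ m ∈ T, dk n |u - m| ≤ 2 := by
    intro T i hinj hi
    calc ∑ m ∈ T, dk n |u - m| ≤ ∑ m ∈ T, dk n (i m : ℝ) :=
          Finset.sum_le_sum fun m hm => dk_anti n (Nat.cast_nonneg _) (hi m hm)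
      _ = ∑ k ∈ T.image i, dk n (k : ℝ) := by
          rw [Finset.sum_image hinj]
      _ ≤ ∑ k ∈ Finset.range ((T.image i).sup id + 1), dk n (k : ℝ) := by
          refine Finset.sum_le_sum_of_subset_of_nonneg ?_ fun k _ _ => dk_nonneg n (Nat.cast_nonneg k)
          intro k hk
          rw [Finset.mem_range]
          have := Finset.le_sup (f := id) hk
          simp only [id] at this
          omega
      _ ≤ 2 := sum_dk hn _
  have h1 := gen (S.filter fun m => m ≤ ⌊u⌋) (fun m => (⌊u⌋ - m).toNat) (by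
    intro a ha b hb hab
    have ha' := (Finset.mem_filter.1 (Finset.mem_coe.1 ha)).2
    have hb' := (Finset.mem_filter.1 (Finset.mem_coe.1 hb)).2
    simp only at hab
    omega) (by
    intro m hm
    have hm' := (Finset.mem_filter.1 hm).2
    have e : (((⌊u⌋ - m).toNat : ℕ) : ℝ) = (⌊u⌋ : ℝ) - m := by
      have : (((⌊u⌋ - m).toNat : ℕ) : ℤ) = ⌊u⌋ - m := Int.toNat_of_nonneg (by omega)
      have h2 : ((((⌊u⌋ - m).toNat : ℕ) : ℤ) : ℝ) = ((⌊u⌋ - m : ℤ) : ℝ) := by rw [this]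
      push_cast at h2
      exact h2
    rw [e]
    have := Int.floor_le u
    exact le_trans (by linarith) (le_abs_self _))
  have h2 := gen (S.filter fun m => ¬ m ≤ ⌊u⌋) (fun m => (m - ⌊u⌋ - 1).toNat) (by
    intro a ha b hb hab
    have ha' := (Finset.mem_filter.1 (Finset.mem_coe.1 ha)).2
    have hb' := (Finset.mem_filter.1 (Finset.mem_coe.1 hb)).2
    simp only at hab
    omega) (by
    intro m hm
    have hm' := (Finset.mem_filter.1 hm).2
    have e : (((m - ⌊u⌋ - 1).toNat : ℕ) : ℝ) = (m : ℝ) - ⌊u⌋ - 1 := by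
      have : (((m - ⌊u⌋ - 1).toNat : ℕ) : ℤ) = m - ⌊u⌋ - 1 := Int.toNat_of_nonneg (by omega)
      have h2 : ((((m - ⌊u⌋ - 1).toNat : ℕ) : ℤ) : ℝ) = ((m - ⌊u⌋ - 1 : ℤ) : ℝ) := by rw [this]
      push_cast at h2
      exact h2
    rw [e]
    have := Int.lt_floor_add_one u
    rw [abs_sub_comm]
    exact le_trans (by linarith) (le_abs_self _))
  linarith

/-- **equally spaced points on the circle** -/
theorem sum_dk_points {n : ℕ} (hn : 2 ≤ n) {M : ℕ} (hM : 0 < M) (x : ℝ) :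
    ∑ j ∈ Finset.range M, dk n (M * nrm (x - j / M)) ≤ 4 := by
  classical
  have hM' : (0 : ℝ) < M := by exact_mod_cast hM
  set k : ℕ → ℤ := fun j => round (x - (j : ℝ) / M) with hk
  set i : ℕ → ℤ := fun j => j + k j * M with hi
  have hinj : Set.InjOn i (Finset.range M) := by
    intro a ha b hb hab
    have ha' := Finset.mem_range.1 (Finset.mem_coe.1 ha)
    have hb' := Finset.mem_range.1 (Finset.mem_coe.1 hb)
    simp only [hi] at hab
    have h1 : ((a : ℤ) + k a * M) % M = ((b : ℤ) + k b * M) % M := by rw [hab]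
    rw [Int.add_mul_emod_self_right, Int.add_mul_emod_self_right,
      Int.emod_eq_of_lt (by omega) (by omega), Int.emod_eq_of_lt (by omega) (by omega)] at h1
    exact_mod_cast h1
  have he : ∀ j ∈ Finset.range M, dk n (M * nrm (x - j / M)) = dk n |M * x - (i j : ℤ)| := by
    intro j _
    congr 1
    unfold nrm
    rw [← abs_of_pos hM', ← abs_mul, abs_of_pos hM']
    congr 1
    simp only [hi, hk]
    push_cast
    field_simp
    ring
  rw [Finset.sum_congr rfl he, ← Finset.sum_image (f := fun m : ℤ => dk n |M * x - m|) hinj]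
  exact sum_dk_int hn _ _

/-- the part at distance at least `R` -/
theorem sum_dk_points_far {n : ℕ} {M : ℕ} (hM : 0 < M) (x : ℝ) {R : ℝ} (hR : 0 ≤ R)
    (S : Finset ℕ) (hS : S ⊆ Finset.range M) (hfar : ∀ j ∈ S, R ≤ M * nrm (x - j / M)) :
    ∑ j ∈ S, dk (2 + n) (M * nrm (x - j / M)) ≤ 4 * dk n R := by
  calc ∑ j ∈ S, dk (2 + n) (M * nrm (x - j / M))
      ≤ ∑ j ∈ S, dk 2 (M * nrm (x - j / M)) * dk n R := by
        refine Finset.sum_le_sum fun j hj => ?_
        rw [dk_add]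
        refine mul_le_mul_of_nonneg_left (dk_anti n hR (hfar j hj)) (dk_nonneg 2 ?_)
        exact mul_nonneg (Nat.cast_nonneg M) (nrm_nonneg _)
    _ = (∑ j ∈ S, dk 2 (M * nrm (x - j / M))) * dk n R := by rw [Finset.sum_mul]
    _ ≤ (∑ j ∈ Finset.range M, dk 2 (M * nrm (x - j / M))) * dk n R := by
        refine mul_le_mul_of_nonneg_right ?_ (dk_nonneg n hR)
        refine Finset.sum_le_sum_of_subset_of_nonneg hS fun j _ _ => dk_nonneg 2 ?_
        exact mul_nonneg (Nat.cast_nonneg M) (nrm_nonneg _)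
    _ ≤ 4 * dk n R := mul_le_mul_of_nonneg_right (sum_dk_points le_rfl hM x) (dk_nonneg n hR)

/-- product of two decaying factors -/
theorem dk_mul_le (n : ℕ) {a b d : ℝ} (ha : 0 ≤ a) (hb : 0 ≤ b) (hd : 0 ≤ d) (h : d ≤ a + b) :
    dk n a * dk n b ≤ 2 ^ n * dk n d * (dk n a + dk n b) := by
  have key : ∀ c e : ℝ, 0 ≤ c → 0 ≤ e → d ≤ 2 * c → dk n c * dk n e ≤ 2 ^ n * dk n d * dk n e := by
    intro c e hc he hce
    refine mul_le_mul_of_nonneg_right ?_ (dk_nonneg n he)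
    unfold dk
    rw [← div_eq_mul_inv, inv_eq_one_div, div_le_div_iff₀ (by positivity) (by positivity), one_mul,
      ← mul_pow]
    exact pow_le_pow_left₀ (by positivity) (by linarith) n
  have h2 : (0 : ℝ) ≤ 2 ^ n * dk n d := mul_nonneg (by positivity) (dk_nonneg n hd)
  rcases le_total a b with hab | hab
  · have := key b a hb ha (by linarith)
    nlinarith [mul_nonneg h2 (dk_nonneg n hb)]
  · have := key a b ha hb (by linarith)
    nlinarith [mul_nonneg h2 (dk_nonneg n ha)]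

/-- **two kernels, equally spaced points** -/
theorem sum_dk_dk {n : ℕ} (hn : 2 ≤ n) {M : ℕ} (hM : 0 < M) (x y : ℝ) :
    ∑ j ∈ Finset.range M, dk n (M * nrm (x - j / M)) * dk n (M * nrm (y - j / M)) ≤
      8 * 2 ^ n * dk n (M * nrm (x - y)) := by
  have hM' : (0 : ℝ) < M := by exact_mod_cast hM
  calc ∑ j ∈ Finset.range M, dk n (M * nrm (x - j / M)) * dk n (M * nrm (y - j / M))
      ≤ ∑ j ∈ Finset.range M, 2 ^ n * dk n (M * nrm (x - y)) *
          (dk n (M * nrm (x - j / M)) + dk n (M * nrm (y - j / M))) := by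
        refine Finset.sum_le_sum fun j _ => ?_
        refine dk_mul_le n (mul_nonneg hM'.le (nrm_nonneg _)) (mul_nonneg hM'.le (nrm_nonneg _))
          (mul_nonneg hM'.le (nrm_nonneg _)) ?_
        rw [← mul_add]
        refine mul_le_mul_of_nonneg_left ?_ hM'.le
        have := nrm_tri x (j / M) y
        rwa [nrm_sub_comm (j / M) y] at this
    _ = 2 ^ n * dk n (M * nrm (x - y)) * (∑ j ∈ Finset.range M, dk n (M * nrm (x - j / M)) +
          ∑ j ∈ Finset.range M, dk n (M * nrm (y - j / M))) := by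
        rw [← Finset.mul_sum, Finset.sum_add_distrib]
    _ ≤ 2 ^ n * dk n (M * nrm (x - y)) * (4 + 4) := by
        refine mul_le_mul_of_nonneg_left (add_le_add (sum_dk_points hn hM x) (sum_dk_points hn hM y)) ?_
        exact mul_nonneg (by positivity) (dk_nonneg n (mul_nonneg hM'.le (nrm_nonneg _)))
    _ = _ := by ring

end Vale.Agent.P091.CH.Per
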